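import Vale.Agent.P162.S2.Cube
import Vale.Agent.P162.H72.ThorpNet

/-!
# P162, stage 3: assembly for every even deck
-/

open Finset Equiv

namespace Vale.Agent.P162.S3

open S2 H72

/-- Part A for every even deck. -/
def MixEven : Prop := ∃ C m₀ : ℕ, ∀ m, m₀ ≤ m → ∀ T, C * Nat.log 2 (2 * m) ≤ T →
  ∀ (α : Type) [Fintype α] [DecidableEq α], 8 * Fintype.card α ≤ 7 * (2 * m) →
    (thorpNet m).Mixes T (1 / (2 * m : ℝ) ^ 3) α

/-- Part B for every even deck: red lines `Fin (2 * (7 * m / 8))`, windows of `log₂ (2 m)` steps. -/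
def PartBEven (κ : ℝ) : Prop := ∀ ε > 0, ∃ m₀ : ℕ, ∀ m, m₀ ≤ m →
  ∃ ω : (Fin (2 * (7 * m / 8)) ↪ Fin (2 * m)) →
      (Fin (Nat.log 2 (2 * m)) → Fin (2 * m) → Bool) → ℝ,
    (∀ f r, 0 ≤ ω f r) ∧ (∀ f r, ω f r ≤ 1) ∧ (∀ τ f r, ω (Net.relab τ f) r = ω f r) ∧
    Abs.Data ((thorpNet m).qlaw (Nat.log 2 (2 * m)) ω) κ ∧
    (1 - avg fun f : Fin (2 * (7 * m / 8)) ↪ Fin (2 * m) => avg fun r => ω f r) ≤ ε

theorem even_main {κ : ℝ} (hAB : Abs.AB κ) (hA : MixEven) (hB : PartBEven κ) :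
    ∃ r m₁ : ℕ, ∀ m, m₁ ≤ m → ∀ F : Perm (Fin (2 * m)) → ℝ, (∀ g, 0 ≤ F g) → (∀ g, F g ≤ 1) →
      (thorpNet m).run 0 (r * Nat.log 2 (2 * m)) F 1 ≤ avg F + 1 / 4 := by
  obtain ⟨R, hR⟩ := hAB
  obtain ⟨N₀, hN⟩ := hR (1 / 16) (by norm_num)
  obtain ⟨C, m₀, hm₀⟩ := hA
  obtain ⟨m₂, hm₂⟩ := hB (1 / (16 * (R + 1))) (by positivity)
  refine ⟨R * (C + 1), m₀ + m₂ + 8 * N₀ + 16 * (R + 1) + 25, ?_⟩
  intro m hm F h0 h1
  have hω := hm₂ m (by omega)
  have hmix := hm₀ m (by omega)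
  obtain ⟨L, hL⟩ : ∃ L, L = Nat.log 2 (2 * m) := ⟨_, rfl⟩
  obtain ⟨N, hNdef⟩ : ∃ N, N = 2 * (7 * m / 8) := ⟨_, rfl⟩
  rw [← hL, ← hNdef] at hω
  rw [← hL] at hmix ⊢
  obtain ⟨ω, w0, w1, w2, w3, w4⟩ := hω
  have hcard : Fintype.card (Fin N) = N := Fintype.card_fin _
  have hret := hN (Fin N) _ (by rw [hcard]; omega) w3
  have hR1 : 1 ≤ R := by
    by_contra hR0
    have : R = 0 := by omega
    subst this
    rw [Abs.ret_eq] at hret
    simp only [convPow, if_true, mul_one, pow_zero, hcard] at hret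
    have h2 : 2 ≤ N.factorial := by
      calc 2 = Nat.factorial 2 := rfl
        _ ≤ _ := Nat.factorial_le (by omega)
    have h3 : (2 : ℝ) ≤ (N.factorial : ℝ) := by exact_mod_cast h2
    linarith
  obtain ⟨ι⟩ : Nonempty (Fin N ↪ Fin (2 * m)) := by
    apply Function.Embedding.nonempty_of_card_le
    rw [Fintype.card_fin, Fintype.card_fin]
    omega
  have m1 : (thorpNet m).Mixes (C * L) (1 / (2 * m : ℝ) ^ 3) (Fin N) :=
    hmix _ le_rfl _ (by rw [hcard]; omega)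
  have m2 : (thorpNet m).Mixes (C * L) (1 / (2 * m : ℝ) ^ 3) {x // x ∉ Set.range ι} := by
    apply hmix _ le_rfl
    have h2 : Fintype.card {x // x ∉ Set.range ι} = 2 * m - N := by
      have h3 := Fintype.card_subtype_compl (fun x => x ∈ Set.range ι)
      have h4 : Fintype.card {x // x ∈ Set.range ι} = N := by
        have := Set.card_range_of_injective ι.injective
        rw [hcard] at this
        exact this
      rw [h4] at h3
      simpa using h3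
    rw [h2]
    omega
  have hm1 : (1 : ℝ) ≤ 2 * m := by
    have : 1 ≤ 2 * m := by omega
    exact_mod_cast this
  have e1 : ((R : ℝ) + 1) * (1 / (2 * m : ℝ) ^ 3) ≤ 1 / 16 := by
    have h2 : (16 : ℝ) * (R + 1) ≤ 2 * m := by
      have : 16 * (R + 1) ≤ 2 * m := by omega
      exact_mod_cast this
    have h4 : (2 * m : ℝ) ≤ (2 * m : ℝ) ^ 3 := le_self_pow₀ hm1 (by norm_num)
    have h5 : (0 : ℝ) < (2 * m : ℝ) ^ 3 := lt_of_lt_of_le (by linarith) h4
    rw [mul_one_div, div_le_iff₀ h5]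
    linarith
  have e2 : (R : ℝ) * (1 - avg fun f : Fin N ↪ Fin (2 * m) => avg fun r => ω f r) ≤ 1 / 16 := by
    refine (mul_le_mul_of_nonneg_left w4 (by positivity)).trans ?_
    rw [mul_one_div, div_le_div_iff₀ (by positivity) (by norm_num)]
    nlinarith [Nat.cast_nonneg (α := ℝ) R]
  have h := Net.run_le_quarter (thorpNet_per m) (one_dvd (C * L)) (one_dvd L) ι m1 m2 w0 w1 w2 hR1
    hret e1 e2 F h0 h1
  have e3 : R * (C * L + L) = R * (C + 1) * L := by ring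
  rw [e3] at h
  exact h

end Vale.Agent.P162.S3
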